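import Mathlib

/-!
# P267 / XA-EX, part 2 (helper646): cut-off functions of a window, weights
-/

open scoped ContDiff Topology
open Set Filter

noncomputable section

namespace Vale.Agent.P267.H646

/-- smooth step: `0` for `s ≤ 1/2`, `1` for `s ≥ 1` -/
def chi (s : ℝ) : ℝ := Real.smoothTransition (2 * s - 1)

theorem chi_smooth : ContDiff ℝ ∞ chi :=
  Real.smoothTransition.contDiff.comp ((contDiff_const.mul contDiff_id).sub contDiff_const)

theorem chi_one {s : ℝ} (h : 1 ≤ s) : chi s = 1 :=
  Real.smoothTransition.one_of_one_le (by linarith)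

theorem chi_zero {s : ℝ} (h : s ≤ 1 / 2) : chi s = 0 :=
  Real.smoothTransition.zero_of_nonpos (by linarith)

theorem chi_nonneg (s : ℝ) : 0 ≤ chi s := Real.smoothTransition.nonneg _

theorem chi_le_one (s : ℝ) : chi s ≤ 1 := Real.smoothTransition.le_one _

theorem chi_diff (s : ℝ) : DifferentiableAt ℝ chi s :=
  (chi_smooth.differentiable (by simp)).differentiableAt

theorem exists_deriv_chi : ∃ K, 0 ≤ K ∧ ∀ s, |deriv chi s| ≤ K := by
  have hc : Continuous fun s => |deriv chi s| := (chi_smooth.continuous_deriv (by simp)).abs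
  obtain ⟨K, hK⟩ := (isCompact_Icc (a := (0 : ℝ)) (b := 2)).bddAbove_image hc.continuousOn
  refine ⟨max K 0, le_max_right _ _, fun s => ?_⟩
  by_cases hs : s ∈ Icc (0 : ℝ) 2
  · exact (hK ⟨s, hs, rfl⟩).trans (le_max_left _ _)
  · have h0 : deriv chi s = 0 := by
      rw [mem_Icc, not_and_or, not_le, not_le] at hs
      rcases hs with hs | hs
      · have : chi =ᶠ[𝓝 s] fun _ => 0 := by
          filter_upwards [gt_mem_nhds hs] with y hy
          exact chi_zero (by linarith)
        rw [this.deriv_eq, deriv_const]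
      · have : chi =ᶠ[𝓝 s] fun _ => 1 := by
          filter_upwards [lt_mem_nhds hs] with y hy
          exact chi_one (by linarith)
        rw [this.deriv_eq, deriv_const]
    rw [h0, abs_zero]
    exact le_max_right _ _

/-- cut-off of the window `|t| ≤ c` -/
def psi (c t : ℝ) : ℝ := chi (c - t) * chi (c + t)

theorem psi_smooth (c : ℝ) : ContDiff ℝ ∞ (psi c) :=
  (chi_smooth.comp (contDiff_const.sub contDiff_id)).mul
    (chi_smooth.comp (contDiff_const.add contDiff_id))

theorem psi_one {c t : ℝ} (h : |t| ≤ c - 1) : psi c t = 1 := by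
  rw [abs_le] at h
  rw [psi, chi_one (by linarith [h.2]), chi_one (by linarith [h.1]), one_mul]

theorem psi_zero {c t : ℝ} (h : c - 1 / 2 ≤ |t|) : psi c t = 0 := by
  rcases abs_cases t with ⟨h1, -⟩ | ⟨h1, -⟩
  · rw [psi, chi_zero (s := c - t) (by linarith), zero_mul]
  · rw [psi, chi_zero (s := c + t) (by linarith), mul_zero]

theorem psi_nonneg (c t : ℝ) : 0 ≤ psi c t := mul_nonneg (chi_nonneg _) (chi_nonneg _)

theorem psi_le_one (c t : ℝ) : psi c t ≤ 1 :=
  mul_le_one₀ (chi_le_one _) (chi_nonneg _) (chi_le_one _)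

theorem hasDerivAt_psi (c t : ℝ) :
    HasDerivAt (psi c) (-(deriv chi (c - t)) * chi (c + t) + chi (c - t) * deriv chi (c + t)) t := by
  have h1 : HasDerivAt (fun t => chi (c - t)) (-(deriv chi (c - t))) t := by
    have := (chi_diff (c - t)).hasDerivAt.comp t ((hasDerivAt_id t).const_sub c)
    rw [mul_neg, mul_one] at this
    exact this
  have h2 : HasDerivAt (fun t => chi (c + t)) (deriv chi (c + t)) t := by
    have := (chi_diff (c + t)).hasDerivAt.comp t ((hasDerivAt_id t).const_add c)
    rw [mul_one] at this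
    exact this
  exact h1.mul h2

theorem deriv_psi_le {K : ℝ} (hK : ∀ s, |deriv chi s| ≤ K) (c t : ℝ) :
    |deriv (psi c) t| ≤ 2 * K := by
  rw [(hasDerivAt_psi c t).deriv]
  have h1 := hK (c - t)
  have h2 := hK (c + t)
  have e1 : |-(deriv chi (c - t)) * chi (c + t)| ≤ K := by
    rw [abs_mul, abs_neg, abs_of_nonneg (chi_nonneg (c + t))]
    exact (mul_le_of_le_one_right (abs_nonneg _) (chi_le_one _)).trans h1
  have e2 : |chi (c - t) * deriv chi (c + t)| ≤ K := by
    rw [abs_mul, abs_of_nonneg (chi_nonneg (c - t))]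
    exact (mul_le_of_le_one_left (abs_nonneg _) (chi_le_one _)).trans h2
  exact (abs_add_le _ _).trans (by linarith)

theorem deriv_psi_zero {c t : ℝ} (h : |t| < c - 1 ∨ c - 1 / 2 < |t|) : deriv (psi c) t = 0 := by
  rcases h with h | h
  · have : psi c =ᶠ[𝓝 t] fun _ => 1 := by
      filter_upwards [continuous_abs.continuousAt.eventually (gt_mem_nhds h)] with y hy
      exact psi_one (le_of_lt hy)
    rw [this.deriv_eq, deriv_const]
  · have : psi c =ᶠ[𝓝 t] fun _ => 0 := by
      filter_upwards [continuous_abs.continuousAt.eventually (lt_mem_nhds h)] with y hy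
      exact psi_zero (le_of_lt hy)
    rw [this.deriv_eq, deriv_const]

end Vale.Agent.P267.H646
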